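import Crest.Agent.Helper78.S0453.ClassAvg

/-!
# Three-row 0/1 tables with fixed margins: the interface `L3` (S0453, helper78)

`Tab c r` is the set of `3 × C` zero-one tables with column sums `c` and row sums `r`, a table
being the triple of its rows (as sets of columns).  `L3 C` is the three-row inequality of
`notes/s0453/PROOF.md` (dual form): for functions `g i` of row `i`, centred,
`∑ (g 0 + g 1 + g 2)² ≤ 2 ∑ (g 0² + g 1² + g 2²)`.  `L3.primal` is the equivalent statement
`P_1 + P_2 + P_3 ≤ 2 I + Π` for the three row-projections.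
-/

set_option autoImplicit false

namespace Crest.Agent.Helper78.S0453

open Finset

variable {C : Type*} [Fintype C] [DecidableEq C]

/-- three-row 0/1 tables with column sums `c` and row sums `r`. -/
def Tab (c : C → ℕ) (r : Fin 3 → ℕ) : Finset (Fin 3 → Finset C) :=
  univ.filter fun x => (∀ w, (univ.filter fun i => w ∈ x i).card = c w) ∧ ∀ i, (x i).card = r i

lemma mem_Tab {c : C → ℕ} {r : Fin 3 → ℕ} {x : Fin 3 → Finset C} :
    x ∈ Tab c r ↔ (∀ w, (univ.filter fun i => w ∈ x i).card = c w) ∧ ∀ i, (x i).card = r i := by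
  simp [Tab]

variable (C) in
/-- **The three-row table inequality** (dual form), for all margins. -/
def L3 : Prop :=
  ∀ (c : C → ℕ) (r : Fin 3 → ℕ) (g : Fin 3 → Finset C → ℝ),
    (∀ i, ∑ x ∈ Tab c r, g i (x i) = 0) →
    ∑ x ∈ Tab c r, (∑ i, g i (x i)) ^ 2 ≤ 2 * ∑ i, ∑ x ∈ Tab c r, g i (x i) ^ 2

/-- primal form of the three-row inequality: `P_1 + P_2 + P_3 ≤ 2 I + Π` on `Tab c r`. -/
theorem L3.primal (h : L3 C) (c : C → ℕ) (r : Fin 3 → ℕ) (f : (Fin 3 → Finset C) → ℝ) :
    ∑ x ∈ Tab c r, f x * ∑ i, cavg (Tab c r) (fun x => x i) f x ≤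
      2 * ∑ x ∈ Tab c r, f x ^ 2 + (∑ x ∈ Tab c r, f x) ^ 2 / ((Tab c r).card : ℝ) :=
  primal_of_dual (Tab c r) (fun i x => x i) (fun g hg => h c r g hg) f

end Crest.Agent.Helper78.S0453
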