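import Mathlib

/-!
# Class averages on a finite set and the "three projections" inequality (S0453, helper78)

For a finite set `S`, a key `κ : α → β` partitions `S` into classes; `cavg S κ f x` is the average of
`f` over the class of `x`.  We prove

* `sum_mul_cavg` : `∑ h(κ x) * cavg f x = ∑ h(κ x) * f x` (conditional expectation);
* `primal_of_dual` : the dual form of the three-projections inequality
  (`‖g₁+g₂+g₃‖² ≤ 2 ∑ ‖g_i‖²` for centred class functions) implies the primal form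
  (`∑_i ⟨Q_i f, f⟩ ≤ 2 ‖f‖² + (∑ f)² / |S|`);
* `primal_transfer` : the primal form is transported along a bijection compatible with the classes.
-/

set_option autoImplicit false

namespace Crest.Agent.Helper78.S0453

open Finset

section Abstract

variable {α β : Type*} [DecidableEq β]

/-- the members of `S` with key `k`. -/
def kcls (S : Finset α) (κ : α → β) (k : β) : Finset α := S.filter (fun y => κ y = k)

/-- the average of `f` over the members of `S` with key `k`. -/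
noncomputable def kavg (S : Finset α) (κ : α → β) (f : α → ℝ) (k : β) : ℝ :=
  (∑ y ∈ kcls S κ k, f y) / ((kcls S κ k).card : ℝ)

/-- the average of `f` over the class of `x` (members of `S` with the same key as `x`). -/
noncomputable def cavg (S : Finset α) (κ : α → β) (f : α → ℝ) (x : α) : ℝ :=
  kavg S κ f (κ x)

lemma mem_kcls {S : Finset α} {κ : α → β} {k : β} {y : α} :
    y ∈ kcls S κ k ↔ y ∈ S ∧ κ y = k := by
  simp [kcls]

lemma kcls_card_pos {S : Finset α} {κ : α → β} {x : α} (hx : x ∈ S) :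
    0 < (kcls S κ (κ x)).card :=
  Finset.card_pos.2 ⟨x, mem_kcls.2 ⟨hx, rfl⟩⟩

/-- conditional-expectation property of the class average. -/
lemma sum_mul_cavg (S : Finset α) (κ : α → β) (f : α → ℝ) (h : β → ℝ) :
    ∑ x ∈ S, h (κ x) * cavg S κ f x = ∑ x ∈ S, h (κ x) * f x := by
  classical
  have hmaps : ∀ x ∈ S, κ x ∈ S.image κ := fun x hx => Finset.mem_image_of_mem κ hx
  rw [← Finset.sum_fiberwise_of_maps_to hmaps (fun x => h (κ x) * cavg S κ f x),
    ← Finset.sum_fiberwise_of_maps_to hmaps (fun x => h (κ x) * f x)]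
  refine Finset.sum_congr rfl fun k hk => ?_
  obtain ⟨x0, hx0, rfl⟩ := Finset.mem_image.1 hk
  have hpos : (0 : ℝ) < ((kcls S κ (κ x0)).card : ℝ) := by
    exact_mod_cast kcls_card_pos hx0
  have e1 : ∑ x ∈ S.filter (fun x => κ x = κ x0), h (κ x) * cavg S κ f x =
      ∑ x ∈ S.filter (fun x => κ x = κ x0), h (κ x0) * kavg S κ f (κ x0) := by
    refine Finset.sum_congr rfl fun x hx => ?_
    rw [Finset.mem_filter] at hx
    rw [cavg, hx.2]
  have e2 : ∑ x ∈ S.filter (fun x => κ x = κ x0), h (κ x) * f x =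
      h (κ x0) * ∑ x ∈ S.filter (fun x => κ x = κ x0), f x := by
    rw [Finset.mul_sum]
    refine Finset.sum_congr rfl fun x hx => ?_
    rw [Finset.mem_filter] at hx
    rw [hx.2]
  rw [e1, e2, Finset.sum_const, nsmul_eq_mul, kavg]
  have : S.filter (fun x => κ x = κ x0) = kcls S κ (κ x0) := rfl
  rw [this]
  field_simp

lemma sum_cavg (S : Finset α) (κ : α → β) (f : α → ℝ) :
    ∑ x ∈ S, cavg S κ f x = ∑ x ∈ S, f x := by
  have := sum_mul_cavg S κ f (fun _ => 1)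
  simpa using this

/-- **dual ⟹ primal** for three keys on a finite set. -/
theorem primal_of_dual (S : Finset α) (κ : Fin 3 → α → β)
    (hdual : ∀ g : Fin 3 → β → ℝ, (∀ i, ∑ x ∈ S, g i (κ i x) = 0) →
      ∑ x ∈ S, (∑ i, g i (κ i x)) ^ 2 ≤ 2 * ∑ i, ∑ x ∈ S, g i (κ i x) ^ 2)
    (f : α → ℝ) :
    ∑ x ∈ S, f x * ∑ i, cavg S (κ i) f x ≤
      2 * ∑ x ∈ S, f x ^ 2 + (∑ x ∈ S, f x) ^ 2 / (S.card : ℝ) := by
  classical
  rcases S.eq_empty_or_nonempty with rfl | hne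
  · simp
  have hN : (0 : ℝ) < (S.card : ℝ) := by exact_mod_cast Finset.card_pos.2 hne
  set N : ℝ := (S.card : ℝ) with hNdef
  set m : ℝ := (∑ x ∈ S, f x) / N with hm
  have hmN : m * N = ∑ x ∈ S, f x := by rw [hm]; field_simp
  -- centred class functions
  set g : Fin 3 → β → ℝ := fun i k => kavg S (κ i) f k - m with hg
  have hgx : ∀ i x, g i (κ i x) = cavg S (κ i) f x - m := fun i x => rfl
  have hg0 : ∀ i, ∑ x ∈ S, g i (κ i x) = 0 := by
    intro i
    simp only [hgx]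
    rw [Finset.sum_sub_distrib, sum_cavg, Finset.sum_const, nsmul_eq_mul, ← hNdef, mul_comm, hmN]
    ring
  have hD := hdual g hg0
  -- ∑ f * g_i = ∑ g_i^2
  have hfg : ∀ i, ∑ x ∈ S, f x * g i (κ i x) = ∑ x ∈ S, g i (κ i x) ^ 2 := by
    intro i
    have h1 := sum_mul_cavg S (κ i) f (g i)
    have h2 : ∑ x ∈ S, g i (κ i x) * cavg S (κ i) f x =
        ∑ x ∈ S, g i (κ i x) ^ 2 + m * ∑ x ∈ S, g i (κ i x) := by
      rw [Finset.mul_sum, ← Finset.sum_add_distrib]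
      refine Finset.sum_congr rfl fun x _ => ?_
      rw [hgx]; ring
    rw [hg0 i, mul_zero, add_zero] at h2
    rw [← h2, h1]
    refine Finset.sum_congr rfl fun x _ => ?_
    ring
  set A : ℝ := ∑ i, ∑ x ∈ S, g i (κ i x) ^ 2 with hA
  have hA0 : 0 ≤ A := Finset.sum_nonneg fun i _ => Finset.sum_nonneg fun x _ => sq_nonneg _
  set F0 : ℝ := ∑ x ∈ S, (f x - m) ^ 2 with hF0
  have hF00 : 0 ≤ F0 := Finset.sum_nonneg fun x _ => sq_nonneg _
  -- ∑ (f - m) * H = A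
  have hfH : ∑ x ∈ S, (f x - m) * ∑ i, g i (κ i x) = A := by
    have : ∑ x ∈ S, (f x - m) * ∑ i, g i (κ i x) =
        ∑ i, (∑ x ∈ S, f x * g i (κ i x) - m * ∑ x ∈ S, g i (κ i x)) := by
      have e0 : ∑ x ∈ S, (f x - m) * ∑ i, g i (κ i x) =
          ∑ x ∈ S, ∑ i, (f x - m) * g i (κ i x) :=
        Finset.sum_congr rfl fun x _ => Finset.mul_sum _ _ _
      rw [e0, Finset.sum_comm]
      refine Finset.sum_congr rfl fun i _ => ?_
      rw [Finset.mul_sum, ← Finset.sum_sub_distrib]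
      refine Finset.sum_congr rfl fun x _ => ?_
      ring
    rw [this, hA]
    refine Finset.sum_congr rfl fun i _ => ?_
    rw [hfg i, hg0 i]; ring
  -- Cauchy–Schwarz
  have hCS : (∑ x ∈ S, (f x - m) * ∑ i, g i (κ i x)) ^ 2 ≤
      F0 * ∑ x ∈ S, (∑ i, g i (κ i x)) ^ 2 :=
    Finset.sum_mul_sq_le_sq_mul_sq S _ _
  rw [hfH] at hCS
  have hA2 : A ≤ 2 * F0 := by
    by_contra hcon
    rw [not_le] at hcon
    have hApos : 0 < A := lt_of_le_of_lt (by positivity) hcon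
    have : A ^ 2 ≤ F0 * (2 * A) := le_trans hCS (mul_le_mul_of_nonneg_left hD hF00)
    nlinarith
  -- evaluate both sides
  have hL : ∑ x ∈ S, f x * ∑ i, cavg S (κ i) f x = A + 3 * m ^ 2 * N := by
    have e1 : ∑ x ∈ S, f x * ∑ i, cavg S (κ i) f x =
        ∑ i, (∑ x ∈ S, f x * g i (κ i x) + m * ∑ x ∈ S, f x) := by
      have e0 : ∑ x ∈ S, f x * ∑ i, cavg S (κ i) f x =
          ∑ x ∈ S, ∑ i, f x * cavg S (κ i) f x :=
        Finset.sum_congr rfl fun x _ => Finset.mul_sum _ _ _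
      rw [e0, Finset.sum_comm]
      refine Finset.sum_congr rfl fun i _ => ?_
      rw [Finset.mul_sum, ← Finset.sum_add_distrib]
      refine Finset.sum_congr rfl fun x _ => ?_
      rw [hgx]; ring
    rw [e1, Finset.sum_add_distrib, hA]
    have : ∑ i : Fin 3, ∑ x ∈ S, f x * g i (κ i x) = ∑ i : Fin 3, ∑ x ∈ S, g i (κ i x) ^ 2 :=
      Finset.sum_congr rfl fun i _ => hfg i
    rw [this, Finset.sum_const, Finset.card_univ, Fintype.card_fin, ← hmN]
    simp only [nsmul_eq_mul]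
    push_cast
    ring
  have hR : ∑ x ∈ S, f x ^ 2 = F0 + m ^ 2 * N := by
    have : F0 = ∑ x ∈ S, f x ^ 2 - 2 * m * ∑ x ∈ S, f x + m ^ 2 * N := by
      rw [hF0]
      have : ∀ x ∈ S, (f x - m) ^ 2 = f x ^ 2 - 2 * m * f x + m ^ 2 := fun x _ => by ring
      rw [Finset.sum_congr rfl this, Finset.sum_add_distrib, Finset.sum_sub_distrib,
        ← Finset.mul_sum, Finset.sum_const, nsmul_eq_mul, ← hNdef]
      ring
    rw [this, ← hmN]; ring
  rw [hL, hR, ← hmN]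
  have : (m * N) ^ 2 / N = m ^ 2 * N := by field_simp
  rw [this]
  linarith

end Abstract

section Transfer

variable {α α' β β' : Type*} [DecidableEq β] [DecidableEq β'] [DecidableEq α']

/-- class averages are transported by an injection compatible with the keys. -/
lemma cavg_image (F : Finset α) (Φ : α → α') (hinj : Set.InjOn Φ (F : Set α))
    (κ : α → β) (κ' : α' → β')
    (hκ : ∀ x ∈ F, ∀ y ∈ F, κ x = κ y ↔ κ' (Φ x) = κ' (Φ y))
    (f : α → ℝ) (f' : α' → ℝ) (hf : ∀ x ∈ F, f' (Φ x) = f x) {x : α} (hx : x ∈ F) :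
    cavg (F.image Φ) κ' f' (Φ x) = cavg F κ f x := by
  classical
  have hcls : kcls (F.image Φ) κ' (κ' (Φ x)) = (kcls F κ (κ x)).image Φ := by
    ext y
    simp only [mem_kcls, Finset.mem_image]
    constructor
    · rintro ⟨⟨x', hx', rfl⟩, hk⟩
      exact ⟨x', ⟨hx', (hκ x' hx' x hx).2 hk⟩, rfl⟩
    · rintro ⟨x', ⟨hx', hk⟩, rfl⟩
      exact ⟨⟨x', hx', rfl⟩, (hκ x' hx' x hx).1 hk⟩
  have hsub : (kcls F κ (κ x) : Set α) ⊆ (F : Set α) := by
    intro y hy
    exact (mem_kcls.1 (Finset.mem_coe.1 hy)).1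
  have hinj' : Set.InjOn Φ (kcls F κ (κ x) : Set α) := hinj.mono hsub
  unfold cavg kavg
  rw [hcls, Finset.sum_image (fun a ha b hb h => hinj' ha hb h), Finset.card_image_of_injOn hinj']
  congr 1
  refine Finset.sum_congr rfl fun y hy => ?_
  exact hf y (mem_kcls.1 hy).1

/-- the primal three-projections inequality is transported along an injection compatible with
the three keys. -/
theorem primal_transfer (F : Finset α) (Φ : α → α') (hinj : Set.InjOn Φ (F : Set α))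
    (κ : Fin 3 → α → β) (κ' : Fin 3 → α' → β')
    (hκ : ∀ i, ∀ x ∈ F, ∀ y ∈ F, κ i x = κ i y ↔ κ' i (Φ x) = κ' i (Φ y))
    (hP : ∀ f' : α' → ℝ, ∑ y ∈ F.image Φ, f' y * ∑ i, cavg (F.image Φ) (κ' i) f' y ≤
      2 * ∑ y ∈ F.image Φ, f' y ^ 2 + (∑ y ∈ F.image Φ, f' y) ^ 2 / ((F.image Φ).card : ℝ))
    (f : α → ℝ) :
    ∑ x ∈ F, f x * ∑ i, cavg F (κ i) f x ≤
      2 * ∑ x ∈ F, f x ^ 2 + (∑ x ∈ F, f x) ^ 2 / (F.card : ℝ) := by
  classical
  -- push `f` forward
  set f' : α' → ℝ := fun y => if h : ∃ x ∈ F, Φ x = y then f h.choose else 0 with hf'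
  have hf : ∀ x ∈ F, f' (Φ x) = f x := by
    intro x hx
    have h : ∃ x' ∈ F, Φ x' = Φ x := ⟨x, hx, rfl⟩
    have hc := h.choose_spec
    have : h.choose = x := hinj (Finset.mem_coe.2 hc.1) (Finset.mem_coe.2 hx) hc.2
    simp only [hf', dif_pos h, this]
  have hsum : ∀ h' : α' → ℝ, ∑ y ∈ F.image Φ, h' y = ∑ x ∈ F, h' (Φ x) := fun h' =>
    Finset.sum_image (fun a ha b hb h => hinj (Finset.mem_coe.2 ha) (Finset.mem_coe.2 hb) h)
  have h := hP f'
  rw [hsum, hsum, hsum, Finset.card_image_of_injOn hinj] at h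
  have e1 : ∑ x ∈ F, f' (Φ x) * ∑ i, cavg (F.image Φ) (κ' i) f' (Φ x) =
      ∑ x ∈ F, f x * ∑ i, cavg F (κ i) f x := by
    refine Finset.sum_congr rfl fun x hx => ?_
    rw [hf x hx]
    congr 1
    refine Finset.sum_congr rfl fun i _ => ?_
    exact cavg_image F Φ hinj (κ i) (κ' i) (hκ i) f f' hf hx
  have e2 : ∑ x ∈ F, f' (Φ x) ^ 2 = ∑ x ∈ F, f x ^ 2 :=
    Finset.sum_congr rfl fun x hx => by rw [hf x hx]
  have e3 : ∑ x ∈ F, f' (Φ x) = ∑ x ∈ F, f x :=
    Finset.sum_congr rfl fun x hx => by rw [hf x hx]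
  rw [e1, e2, e3] at h
  exact h

end Transfer

section Fibres

variable {α β γ : Type*} [DecidableEq β] [DecidableEq γ]

/-- If the key `κ` refines the key `τ` on `Ω`, the `κ`-class of a point of a `τ`-fibre is the same
in the fibre as in `Ω`. -/
lemma kcls_fibre (Ω : Finset α) (κ : α → β) (τ : α → γ)
    (href : ∀ x ∈ Ω, ∀ y ∈ Ω, κ x = κ y → τ x = τ y) {x0 x : α} (hx : x ∈ kcls Ω τ (τ x0)) :
    kcls (kcls Ω τ (τ x0)) κ (κ x) = kcls Ω κ (κ x) := by
  ext y
  simp only [mem_kcls] at hx ⊢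
  constructor
  · rintro ⟨⟨hy, -⟩, hk⟩
    exact ⟨hy, hk⟩
  · rintro ⟨hy, hk⟩
    exact ⟨⟨hy, (href y hy x hx.1 hk).trans hx.2⟩, hk⟩

lemma cavg_fibre (Ω : Finset α) (κ : α → β) (τ : α → γ)
    (href : ∀ x ∈ Ω, ∀ y ∈ Ω, κ x = κ y → τ x = τ y) (f : α → ℝ) {x0 x : α}
    (hx : x ∈ kcls Ω τ (τ x0)) :
    cavg (kcls Ω τ (τ x0)) κ f x = cavg Ω κ f x := by
  unfold cavg kavg
  rw [kcls_fibre Ω κ τ href hx]

/-- the class average over the fibre key itself. -/
lemma sum_mul_cavg_fibre (Ω : Finset α) (τ : α → γ) (f : α → ℝ) {x0 : α} (hx0 : x0 ∈ Ω) :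
    ∑ x ∈ kcls Ω τ (τ x0), f x * cavg Ω τ f x =
      (∑ x ∈ kcls Ω τ (τ x0), f x) ^ 2 / ((kcls Ω τ (τ x0)).card : ℝ) := by
  have hpos : (0 : ℝ) < ((kcls Ω τ (τ x0)).card : ℝ) := by
    exact_mod_cast kcls_card_pos hx0
  have e1 : ∑ x ∈ kcls Ω τ (τ x0), f x * cavg Ω τ f x =
      ∑ x ∈ kcls Ω τ (τ x0), f x * kavg Ω τ f (τ x0) := by
    refine Finset.sum_congr rfl fun x hx => ?_
    rw [cavg, (mem_kcls.1 hx).2]
  rw [e1, ← Finset.sum_mul, kavg]
  field_simp

/-- **Summation over fibres**: if on every `τ`-fibre the primal three-projections inequality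
holds for three keys refining `τ`, then it holds globally with `cavg Ω τ` in place of the mean. -/
theorem primal_global (Ω : Finset α) (κ : Fin 3 → α → β) (τ : α → γ)
    (href : ∀ i, ∀ x ∈ Ω, ∀ y ∈ Ω, κ i x = κ i y → τ x = τ y)
    (hfib : ∀ x0 ∈ Ω, ∀ f : α → ℝ,
      ∑ x ∈ kcls Ω τ (τ x0), f x * ∑ i, cavg (kcls Ω τ (τ x0)) (κ i) f x ≤
        2 * ∑ x ∈ kcls Ω τ (τ x0), f x ^ 2 +
          (∑ x ∈ kcls Ω τ (τ x0), f x) ^ 2 / ((kcls Ω τ (τ x0)).card : ℝ))
    (f : α → ℝ) :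
    ∑ x ∈ Ω, f x * ∑ i, cavg Ω (κ i) f x ≤
      2 * ∑ x ∈ Ω, f x ^ 2 + ∑ x ∈ Ω, f x * cavg Ω τ f x := by
  classical
  have hmaps : ∀ x ∈ Ω, τ x ∈ Ω.image τ := fun x hx => Finset.mem_image_of_mem τ hx
  rw [← Finset.sum_fiberwise_of_maps_to hmaps (fun x => f x * ∑ i, cavg Ω (κ i) f x),
    ← Finset.sum_fiberwise_of_maps_to hmaps (fun x => f x ^ 2),
    ← Finset.sum_fiberwise_of_maps_to hmaps (fun x => f x * cavg Ω τ f x),
    Finset.mul_sum, ← Finset.sum_add_distrib]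
  refine Finset.sum_le_sum fun k hk => ?_
  obtain ⟨x0, hx0, rfl⟩ := Finset.mem_image.1 hk
  have h := hfib x0 hx0 f
  have e1 : ∑ x ∈ kcls Ω τ (τ x0), f x * ∑ i, cavg (kcls Ω τ (τ x0)) (κ i) f x =
      ∑ x ∈ kcls Ω τ (τ x0), f x * ∑ i, cavg Ω (κ i) f x := by
    refine Finset.sum_congr rfl fun x hx => ?_
    congr 1
    refine Finset.sum_congr rfl fun i _ => ?_
    exact cavg_fibre Ω (κ i) τ (href i) f hx
  rw [e1, ← sum_mul_cavg_fibre Ω τ f hx0] at h
  exact h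

end Fibres

end Crest.Agent.Helper78.S0453
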