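import Crest.Agent.Helper65.Switch.Classes
import Crest.Agent.Helper78.S0453.Table3

/-!
# S0453, three-body step: the fibre of `G ↦ G - T` (|T| = 3) is a three-row table (helper78)

For an injective `t : Fin 3 → Fin n` with image `T`, `rowT t G i` is row `i` of the table of `G`:
the neighbours of `t i` outside `T`, plus the *virtual column* `t 0` iff the pair of `T` opposite
to `t i` is a **non**-edge of `G`.  With `e` the number of edges of `G` inside `T`, the row sums
are `d (t i) + 1 - e` and the virtual column sum is `3 - e`; `e` is constant on the fibre of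
`offU T`.  `G ↦ rowT t G` is a bijection from the fibre onto the tables with these margins, and two
members of the fibre have the same `offU {t (i+1), t (i+2)}` iff they have the same row `i`.
-/

set_option autoImplicit false

namespace Crest.Agent.Helper78.S0453

open Finset Crest.SwitchChain Crest.Agent.Helper65.Switch

/-! ### `Fin 3` arithmetic -/

lemma fin3_cases (i j : Fin 3) : j = i ∨ j = i + 1 ∨ j = i + 2 := by
  revert i j; decide

lemma fin3_ne1 (i : Fin 3) : i ≠ i + 1 := by revert i; decide
lemma fin3_ne2 (i : Fin 3) : i ≠ i + 2 := by revert i; decide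
lemma fin3_ne12 (i : Fin 3) : i + 1 ≠ i + 2 := by revert i; decide
lemma fin3_add11 (i : Fin 3) : i + 1 + 1 = i + 2 := by revert i; decide
lemma fin3_add12 (i : Fin 3) : i + 1 + 2 = i := by revert i; decide
lemma fin3_add21 (i : Fin 3) : i + 2 + 1 = i := by revert i; decide
lemma fin3_add22 (i : Fin 3) : i + 2 + 2 = i + 1 := by revert i; decide
lemma fin3_pair (i j : Fin 3) (h : i ≠ j) :
    ∃ k, (i = k + 1 ∧ j = k + 2) ∨ (i = k + 2 ∧ j = k + 1) := by
  revert i j; decide

lemma sum_fin3 {M : Type*} [AddCommMonoid M] (i : Fin 3) (F : Fin 3 → M) :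
    ∑ j, F j = F i + F (i + 1) + F (i + 2) := by
  fin_cases i
  · simp [Fin.sum_univ_three]
  · simp [Fin.sum_univ_three]
    abel
  · simp [Fin.sum_univ_three]
    abel

noncomputable section

open Classical

variable {n : ℕ}

/-! ### counting neighbours -/

variable (t : Fin 3 → Fin n)

/-- the vertex set `T = {t 0, t 1, t 2}`. -/
def TT : Finset (Fin n) := univ.image t

lemma mem_TT {v : Fin n} : v ∈ TT t ↔ ∃ i, t i = v := by
  simp [TT]

lemma t_mem_TT (i : Fin 3) : t i ∈ TT t := (mem_TT t).2 ⟨i, rfl⟩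

lemma card_nb_of_mem {d : Fin n → ℕ} {G : Finset (Edge n)} (hG : G ∈ realizations d) (v : Fin n) :
    (nb G v).card = d v := by
  rw [← deg_eq_card_nb, mem_realizations.1 hG v]

variable {t}

lemma card_nb_split (ht : Function.Injective t) (G : Finset (Edge n)) (v : Fin n) :
    (nb G v).card = (nb G v \ TT t).card + ∑ j, (if adj G v (t j) then 1 else 0) := by
  have h1 := Finset.card_sdiff_add_card_inter (nb G v) (TT t)
  have h2 : (nb G v ∩ TT t).card = ∑ j, (if adj G v (t j) then 1 else 0) := by
    have : nb G v ∩ TT t = (TT t).filter (fun w => adj G v w) := by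
      ext w
      simp only [mem_inter, mem_nb, mem_filter]
      tauto
    rw [this, Finset.card_filter, TT, Finset.sum_image (fun a _ b _ h => ht h)]
  omega

lemma card_nb_sdiff (G : Finset (Edge n)) (v : Fin n) :
    (nb G v \ TT t).card = ∑ w ∈ univ \ TT t, (if adj G v w then 1 else 0) := by
  have : nb G v \ TT t = (univ \ TT t).filter (fun w => adj G v w) := by
    ext w
    simp only [mem_sdiff, mem_nb, mem_filter, mem_univ, true_and]
    tauto
  rw [this, Finset.card_filter]

/-! ### rows of the table of a graph -/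

variable (t)

/-- the internal edge opposite to `t i`, as a number in `{0,1}`. -/
def ie (G : Finset (Edge n)) (i : Fin 3) : ℕ := if adj G (t (i + 1)) (t (i + 2)) then 1 else 0

/-- row `i` of the table of `G`. -/
def rowT (G : Finset (Edge n)) (i : Fin 3) : Finset (Fin n) :=
  (nb G (t i) \ TT t) ∪ (if adj G (t (i + 1)) (t (i + 2)) then ∅ else {t 0})

variable {t}

lemma mem_rowT {G : Finset (Edge n)} {i : Fin 3} {w : Fin n} :
    w ∈ rowT t G i ↔
      (adj G (t i) w ∧ w ∉ TT t) ∨ (w = t 0 ∧ ¬ adj G (t (i + 1)) (t (i + 2))) := by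
  unfold rowT
  by_cases h : adj G (t (i + 1)) (t (i + 2))
  · simp [h, mem_nb]
  · simp only [h, if_false, mem_union, mem_sdiff, mem_nb, mem_singleton, not_false_eq_true,
      and_true]

lemma mem_rowT_of_not_mem {G : Finset (Edge n)} {i : Fin 3} {w : Fin n} (hw : w ∉ TT t) :
    w ∈ rowT t G i ↔ adj G (t i) w := by
  rw [mem_rowT]
  constructor
  · rintro (⟨h, -⟩ | ⟨rfl, -⟩)
    · exact h
    · exact absurd (t_mem_TT t 0) hw
  · intro h
    exact Or.inl ⟨h, hw⟩

lemma t0_mem_rowT {G : Finset (Edge n)} {i : Fin 3} :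
    t 0 ∈ rowT t G i ↔ ¬ adj G (t (i + 1)) (t (i + 2)) := by
  rw [mem_rowT]
  constructor
  · rintro (⟨-, h⟩ | ⟨-, h⟩)
    · exact absurd (t_mem_TT t 0) h
    · exact h
  · intro h
    exact Or.inr ⟨rfl, h⟩

lemma tj_not_mem_rowT (ht : Function.Injective t) {G : Finset (Edge n)} {i j : Fin 3}
    (hj : j ≠ 0) : t j ∉ rowT t G i := by
  rw [mem_rowT]
  rintro (⟨-, h⟩ | ⟨h, -⟩)
  · exact h (t_mem_TT t j)
  · exact hj (ht h)

/-- column count at a vertex outside `T`. -/
lemma col_of_not_mem {G : Finset (Edge n)} {w : Fin n} (hw : w ∉ TT t) :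
    (univ.filter fun i => w ∈ rowT t G i).card = ∑ j, (if adj G w (t j) then 1 else 0) := by
  rw [Finset.card_filter]
  refine Finset.sum_congr rfl fun i _ => ?_
  have : w ∈ rowT t G i ↔ adj G w (t i) := (mem_rowT_of_not_mem hw).trans adj_comm
  simp only [this]

/-- the virtual column. -/
lemma col_t0 (G : Finset (Edge n)) :
    (univ.filter fun i => t 0 ∈ rowT t G i).card + ∑ i, ie t G i = 3 := by
  rw [Finset.card_filter, ← Finset.sum_add_distrib]
  have : ∀ i ∈ (univ : Finset (Fin 3)),
      (if t 0 ∈ rowT t G i then 1 else 0) + ie t G i = 1 := by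
    intro i _
    unfold ie
    by_cases h : adj G (t (i + 1)) (t (i + 2))
    · simp [t0_mem_rowT, h]
    · simp [t0_mem_rowT, h]
  rw [Finset.sum_congr rfl this]
  simp

lemma col_tj (ht : Function.Injective t) (G : Finset (Edge n)) {j : Fin 3} (hj : j ≠ 0) :
    (univ.filter fun i => t j ∈ rowT t G i).card = 0 := by
  rw [Finset.card_eq_zero, Finset.filter_eq_empty_iff]
  intro i _
  exact tj_not_mem_rowT ht hj

lemma card_rowT (G : Finset (Edge n)) (i : Fin 3) :
    (rowT t G i).card + ie t G i = (nb G (t i) \ TT t).card + 1 := by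
  unfold rowT ie
  by_cases h : adj G (t (i + 1)) (t (i + 2))
  · simp [h]
  · simp only [h, if_false]
    rw [Finset.card_union_of_disjoint]
    · simp
    · rw [Finset.disjoint_singleton_right]
      intro hh
      exact (Finset.mem_sdiff.1 hh).2 (t_mem_TT t 0)

/-- internal degree of `t i`. -/
lemma internal_deg (G : Finset (Edge n)) (i : Fin 3) :
    ∑ j, (if adj G (t i) (t j) then 1 else 0) = ie t G (i + 1) + ie t G (i + 2) := by
  rw [sum_fin3 i]
  have h0 : (if adj G (t i) (t i) then 1 else 0 : ℕ) = 0 := by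
    rw [if_neg not_adj_self]
  have h1 : (if adj G (t i) (t (i + 1)) then 1 else 0 : ℕ) = ie t G (i + 2) := by
    unfold ie
    rw [fin3_add21, fin3_add22]
  have h2 : (if adj G (t i) (t (i + 2)) then 1 else 0 : ℕ) = ie t G (i + 1) := by
    unfold ie
    rw [fin3_add11, fin3_add12]
    by_cases h : adj G (t i) (t (i + 2))
    · rw [if_pos h, if_pos (adj_comm.1 h)]
    · rw [if_neg h, if_neg (fun hh => h (adj_comm.1 hh))]
  rw [h0, h1, h2]
  omega

lemma ie_sum (G : Finset (Edge n)) (i : Fin 3) :
    ∑ j, ie t G j = ie t G i + ie t G (i + 1) + ie t G (i + 2) := sum_fin3 i _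

/-- row sums: `|row i| + e = d (t i) + 1`. -/
lemma card_rowT_add (ht : Function.Injective t) {d : Fin n → ℕ} {G : Finset (Edge n)}
    (hG : G ∈ realizations d) (i : Fin 3) :
    (rowT t G i).card + ∑ j, ie t G j = d (t i) + 1 := by
  have h1 := card_nb_of_mem hG (t i)
  have h2 := card_nb_split ht G (t i)
  have h3 := internal_deg (t := t) G i
  have h4 := card_rowT (t := t) G i
  have h5 := ie_sum (t := t) G i
  omega

/-- the number of internal edges is constant on a fibre of `offU T`. -/
lemma ie_sum_eq (ht : Function.Injective t) {d : Fin n → ℕ} {G G' : Finset (Edge n)}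
    (hG : G ∈ realizations d) (hG' : G' ∈ realizations d) (h : offU (TT t) G = offU (TT t) G') :
    ∑ j, ie t G j = ∑ j, ie t G' j := by
  rw [offU_eq_iff] at h
  -- neighbourhoods outside T agree for vertices outside T
  have hnb : ∀ w, w ∉ TT t → nb G w \ TT t = nb G' w \ TT t := by
    intro w hw
    ext v
    simp only [mem_sdiff, mem_nb]
    constructor
    · rintro ⟨h1, h2⟩; exact ⟨(h w v hw h2).1 h1, h2⟩
    · rintro ⟨h1, h2⟩; exact ⟨(h w v hw h2).2 h1, h2⟩
  -- the cross count
  have hX : ∀ (H : Finset (Edge n)), H ∈ realizations d →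
      ∑ w ∈ univ \ TT t, ∑ j, (if adj H w (t j) then 1 else 0) + 2 * ∑ j, ie t H j
        = ∑ j, d (t j) := by
    intro H hH
    have e1 : ∑ w ∈ univ \ TT t, ∑ j, (if adj H w (t j) then 1 else 0) =
        ∑ j, (nb H (t j) \ TT t).card := by
      rw [Finset.sum_comm]
      refine Finset.sum_congr rfl fun j _ => ?_
      rw [card_nb_sdiff]
      refine Finset.sum_congr rfl fun w _ => ?_
      by_cases hh : adj H w (t j)
      · rw [if_pos hh, if_pos (adj_comm.1 hh)]
      · rw [if_neg hh, if_neg (fun h' => hh (adj_comm.1 h'))]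
    have e2 : ∀ j, (nb H (t j) \ TT t).card + (ie t H (j + 1) + ie t H (j + 2)) = d (t j) := by
      intro j
      have h1 := card_nb_of_mem hH (t j)
      have h2 := card_nb_split ht H (t j)
      have h3 := internal_deg (t := t) H j
      omega
    rw [e1]
    have e3 : ∑ j, d (t j) = ∑ j, ((nb H (t j) \ TT t).card + (ie t H (j + 1) + ie t H (j + 2))) :=
      Finset.sum_congr rfl fun j _ => (e2 j).symm
    rw [e3, Finset.sum_add_distrib]
    have e4 : ∑ j : Fin 3, (ie t H (j + 1) + ie t H (j + 2)) = 2 * ∑ j, ie t H j := by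
      simp only [Fin.sum_univ_three]
      have a1 : (0 : Fin 3) + 1 = 1 := by decide
      have a2 : (0 : Fin 3) + 2 = 2 := by decide
      have a3 : (1 : Fin 3) + 1 = 2 := by decide
      have a4 : (1 : Fin 3) + 2 = 0 := by decide
      have a5 : (2 : Fin 3) + 1 = 0 := by decide
      have a6 : (2 : Fin 3) + 2 = 1 := by decide
      rw [a1, a2, a3, a4, a5, a6]
      ring
    rw [e4]
  have hXG := hX G hG
  have hXG' := hX G' hG'
  have hcross : ∑ w ∈ univ \ TT t, ∑ j, (if adj G w (t j) then 1 else 0) =
      ∑ w ∈ univ \ TT t, ∑ j, (if adj G' w (t j) then 1 else 0) := by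
    refine Finset.sum_congr rfl fun w hw => ?_
    have hw' : w ∉ TT t := (Finset.mem_sdiff.1 hw).2
    have h1 := card_nb_of_mem hG w
    have h1' := card_nb_of_mem hG' w
    have h2 := card_nb_split ht G w
    have h2' := card_nb_split ht G' w
    have h3 := hnb w hw'
    rw [h3] at h2
    omega
  omega

/-- the margins of the table are constant on a fibre of `offU T`. -/
lemma margins_eq (ht : Function.Injective t) {d : Fin n → ℕ} {G G' : Finset (Edge n)}
    (hG : G ∈ realizations d) (hG' : G' ∈ realizations d) (h : offU (TT t) G = offU (TT t) G') :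
    (∀ w, (univ.filter fun i => w ∈ rowT t G i).card =
        (univ.filter fun i => w ∈ rowT t G' i).card) ∧
      ∀ i, (rowT t G i).card = (rowT t G' i).card := by
  have hE := ie_sum_eq ht hG hG' h
  constructor
  · intro w
    by_cases hw : w ∈ TT t
    · obtain ⟨j, rfl⟩ := (mem_TT t).1 hw
      by_cases hj : j = 0
      · subst hj
        have h1 := col_t0 (t := t) G
        have h2 := col_t0 (t := t) G'
        omega
      · rw [col_tj ht G hj, col_tj ht G' hj]
    · rw [col_of_not_mem hw, col_of_not_mem hw]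
      have h1 := card_nb_of_mem hG w
      have h1' := card_nb_of_mem hG' w
      have h2 := card_nb_split ht G w
      have h2' := card_nb_split ht G' w
      have h3 : nb G w \ TT t = nb G' w \ TT t := by
        rw [offU_eq_iff] at h
        ext v
        simp only [mem_sdiff, mem_nb]
        constructor
        · rintro ⟨a1, a2⟩; exact ⟨(h w v hw a2).1 a1, a2⟩
        · rintro ⟨a1, a2⟩; exact ⟨(h w v hw a2).2 a1, a2⟩
      rw [h3] at h2
      omega
  · intro i
    have h1 := card_rowT_add ht hG i
    have h2 := card_rowT_add ht hG' i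
    omega

/-! ### classes of a pair inside the fibre, and injectivity -/

lemma pair_subset (i : Fin 3) : ({t (i + 1), t (i + 2)} : Finset (Fin n)) ⊆ TT t := by
  intro v hv
  rcases Finset.mem_insert.1 hv with rfl | hv
  · exact t_mem_TT t _
  · rw [Finset.mem_singleton] at hv
    subst hv
    exact t_mem_TT t _

lemma ti_not_mem_pair (ht : Function.Injective t) (i : Fin 3) :
    t i ∉ ({t (i + 1), t (i + 2)} : Finset (Fin n)) := by
  intro hv
  rcases Finset.mem_insert.1 hv with h | h
  · exact fin3_ne1 i (ht h)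
  · rw [Finset.mem_singleton] at h
    exact fin3_ne2 i (ht h)

lemma eq_ti_of_mem_of_not_mem_pair {i : Fin 3} {x : Fin n} (hx : x ∈ TT t)
    (hxU : x ∉ ({t (i + 1), t (i + 2)} : Finset (Fin n))) : x = t i := by
  obtain ⟨j, rfl⟩ := (mem_TT t).1 hx
  rcases fin3_cases i j with rfl | rfl | rfl
  · rfl
  · exact absurd (Finset.mem_insert_self _ _) hxU
  · exact absurd (Finset.mem_insert_of_mem (Finset.mem_singleton_self _)) hxU

/-- inside a fibre of `offU T`, the class of the pair opposite to `t i` is "same row `i`". -/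
lemma off_pair_iff (ht : Function.Injective t) {d : Fin n → ℕ} {G G' : Finset (Edge n)}
    (hG : G ∈ realizations d) (hG' : G' ∈ realizations d) (h : offU (TT t) G = offU (TT t) G')
    (i : Fin 3) :
    offU {t (i + 1), t (i + 2)} G = offU {t (i + 1), t (i + 2)} G' ↔ rowT t G i = rowT t G' i := by
  have hT := offU_eq_iff.1 h
  constructor
  · intro hp
    have hp' := offU_eq_iff.1 hp
    have hK : ∀ w, w ∉ TT t → (adj G (t i) w ↔ adj G' (t i) w) := fun w hw =>
      hp' (t i) w (ti_not_mem_pair ht i) (fun hh => hw (pair_subset i hh))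
    have hnb : nb G (t i) \ TT t = nb G' (t i) \ TT t := by
      ext v
      simp only [mem_sdiff, mem_nb]
      constructor
      · rintro ⟨a1, a2⟩; exact ⟨(hK v a2).1 a1, a2⟩
      · rintro ⟨a1, a2⟩; exact ⟨(hK v a2).2 a1, a2⟩
    have h1 := card_rowT (t := t) G i
    have h2 := card_rowT (t := t) G' i
    have h3 := (margins_eq ht hG hG' h).2 i
    rw [hnb] at h1
    have hie : ie t G i = ie t G' i := by omega
    have hadj : adj G (t (i + 1)) (t (i + 2)) ↔ adj G' (t (i + 1)) (t (i + 2)) := by
      unfold ie at hie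
      by_cases a1 : adj G (t (i + 1)) (t (i + 2)) <;>
        by_cases a2 : adj G' (t (i + 1)) (t (i + 2)) <;> simp [a1, a2] at hie ⊢
    ext w
    simp only [mem_rowT]
    constructor
    · rintro (⟨a1, a2⟩ | ⟨a1, a2⟩)
      · exact Or.inl ⟨(hK w a2).1 a1, a2⟩
      · exact Or.inr ⟨a1, fun hh => a2 (hadj.2 hh)⟩
    · rintro (⟨a1, a2⟩ | ⟨a1, a2⟩)
      · exact Or.inl ⟨(hK w a2).2 a1, a2⟩
      · exact Or.inr ⟨a1, fun hh => a2 (hadj.1 hh)⟩
  · intro hrow
    have hK : ∀ w, w ∉ TT t → (adj G (t i) w ↔ adj G' (t i) w) := by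
      intro w hw
      rw [← mem_rowT_of_not_mem hw, ← mem_rowT_of_not_mem hw, hrow]
    rw [offU_eq_iff]
    intro x y hx hy
    by_cases hxT : x ∈ TT t
    · have hxi := eq_ti_of_mem_of_not_mem_pair hxT hx
      subst hxi
      by_cases hyT : y ∈ TT t
      · have hyi := eq_ti_of_mem_of_not_mem_pair hyT hy
        subst hyi
        exact ⟨fun hh => absurd hh not_adj_self, fun hh => absurd hh not_adj_self⟩
      · exact hK y hyT
    · by_cases hyT : y ∈ TT t
      · have hyi := eq_ti_of_mem_of_not_mem_pair hyT hy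
        subst hyi
        rw [adj_comm, hK x hxT, adj_comm]
      · exact hT x y hxT hyT

/-- a graph is determined by its part outside `T` and its table. -/
lemma fibre_inj {G G' : Finset (Edge n)} (h : offU (TT t) G = offU (TT t) G')
    (hrow : rowT t G = rowT t G') : G = G' := by
  have hT := offU_eq_iff.1 h
  have hK : ∀ i w, w ∉ TT t → (adj G (t i) w ↔ adj G' (t i) w) := by
    intro i w hw
    rw [← mem_rowT_of_not_mem hw, ← mem_rowT_of_not_mem hw, hrow]
  have hI : ∀ k, adj G (t (k + 1)) (t (k + 2)) ↔ adj G' (t (k + 1)) (t (k + 2)) := by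
    intro k
    have h1 := t0_mem_rowT (t := t) (G := G) (i := k)
    have h2 := t0_mem_rowT (t := t) (G := G') (i := k)
    rw [hrow] at h1
    exact not_iff_not.1 (h1.symm.trans h2)
  apply eq_of_agree_univ
  intro x _ y
  by_cases hxT : x ∈ TT t
  · obtain ⟨i, rfl⟩ := (mem_TT t).1 hxT
    by_cases hyT : y ∈ TT t
    · obtain ⟨j, rfl⟩ := (mem_TT t).1 hyT
      by_cases hij : i = j
      · subst hij
        exact ⟨fun hh => absurd hh not_adj_self, fun hh => absurd hh not_adj_self⟩
      · obtain ⟨k, ⟨rfl, rfl⟩ | ⟨rfl, rfl⟩⟩ := fin3_pair i j hij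
        · exact hI k
        · rw [adj_comm, hI k, adj_comm]
    · exact hK i y hyT
  · by_cases hyT : y ∈ TT t
    · obtain ⟨j, rfl⟩ := (mem_TT t).1 hyT
      rw [adj_comm, hK j x hxT, adj_comm]
    · exact hT x y hxT hyT

end

end Crest.Agent.Helper78.S0453
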