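import Crest.Agent.Helper78.S0453.ThreeBodyOm
import Crest.Agent.Helper68.SW3.Bridge78
import Crest.Agent.Helper12.S0453.L3Final

/-!
# S0453: the three-body inequality (3B-Om), hypothesis-free (helper78)

`Crest.Agent.Helper78.S0453.three_body` is the input `h3B` of the integration
(`Crest.Agent.Helper65.Switch.result_of_3B_TPL_J2`, `Crest.Agent.Helper26.SW.var_le_sum_Rop`),
verbatim:  for distinct vertices `a b c` and every `f` on `realizations d`,
`∑ f * (Q_{ab} f + Q_{ac} f + Q_{bc} f) ≤ 2 ∑ f² + ∑ f * Q_{abc} f`.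

Ingredients: the fibre of `G ↦ offU T G` is a set of three-row 0/1 tables with fixed margins
(forward half and row/key dictionary: `Fibre3.lean`; inverse half: helper68's `ofTable_mem_Tab`),
the three-row table inequality `L3` (helper12's `L3_h78`, from the one-dimensional lemma), and the
abstract reduction `ClassAvg.lean`.
-/

set_option autoImplicit false

namespace Crest.Agent.Helper78.S0453

open Finset Crest.SwitchChain Crest.Agent.Helper65.Switch

variable {n : ℕ}

/-- the inverse half of the fibre bijection (helper68's `ofTable`). -/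
theorem fibreSurj {t : Fin 3 → Fin n} (ht : Function.Injective t) (d : Fin n → ℕ) :
    FibreSurj t d := by
  intro G₀ hG₀ x hx
  obtain ⟨h1, h2⟩ := Crest.Agent.Helper68.SW3.ofTable_mem_Tab ht hG₀ hx
  exact ⟨_, (mem_cls.1 h1).1, (mem_cls.1 h1).2, h2⟩

/-- the three-row table inequality on `Fin n` (helper12). -/
theorem l3_fin (n : ℕ) : L3 (Fin n) := Crest.Agent.Helper12.S0453.L3_h78

/-- **(3B-Om)**, the shape `h3B` of the integration: `Q_{ab} + Q_{ac} + Q_{bc} ≤ 2 I + Q_{abc}`. -/
theorem three_body (d : Fin n → ℕ) :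
    ∀ a b c : Fin n, a ≠ b → a ≠ c → b ≠ c → ∀ f : Finset (Edge n) → ℝ,
      ∑ G ∈ realizations d, f G * (Qavg d {a, b} f G + Qavg d {a, c} f G + Qavg d {b, c} f G) ≤
        2 * ∑ G ∈ realizations d, f G ^ 2 + ∑ G ∈ realizations d, f G * Qavg d {a, b, c} f G :=
  fun _ _ _ hab hac hbc f =>
    three_body_Qavg (l3_fin n) (fun _ ht => fibreSurj ht d) hab hac hbc f

/-- (3B-Om) in lead's form: `⟨f, R_T f⟩ ≤ ∑_{U ⊆ T, |U| = 2} ⟨f, R_U f⟩` for `|T| = 3`. -/
theorem three_body_powerset (d : Fin n → ℕ) (T : Finset (Fin n)) (hT : T.card = 3)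
    (f : Finset (Edge n) → ℝ) :
    ∑ G ∈ realizations d, f G * Rop d T f G ≤
      ∑ U ∈ T.powersetCard 2, ∑ G ∈ realizations d, f G * Rop d U f G :=
  three_body_Rop (l3_fin n) (fun _ ht => fibreSurj ht d) T hT f

/-- (3B) as the hypothesis `h3` of `Crest.Agent.Helper26.SW.gap_pairs` (`κ = κT = offU`). -/
theorem three_body_gap_pairs (d : Fin n → ℕ) :
    ∀ (a b c : Fin n), a ≠ b → a ≠ c → b ≠ c → ∀ f : Finset (Edge n) → ℝ,
      ∑ x ∈ realizations d, f x *
          (Crest.Agent.Helper26.SW.cavg (realizations d) (offU {a, b}) f x +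
            Crest.Agent.Helper26.SW.cavg (realizations d) (offU {a, c}) f x +
            Crest.Agent.Helper26.SW.cavg (realizations d) (offU {b, c}) f x)
        ≤ 2 * ∑ x ∈ realizations d, f x ^ 2 +
          ∑ x ∈ realizations d, f x *
            Crest.Agent.Helper26.SW.cavg (realizations d) (offU {a, b, c}) f x :=
  three_body_h3 (l3_fin n) (fun _ ht => fibreSurj ht d)

end Crest.Agent.Helper78.S0453
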