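import Crest.Agent.Helper78.S0453.Table3
import Crest.Agent.Helper56.SW.Tables

/-!
# S0453: `L3 C` (helper78's table interface) from the colouring-model (L3) (helper78)

`L3_of_colouring`: helper56's `L3Colouring` (the common shape of the WP-D1 files) gives `L3 C`
for every finite `C`, through helper56's `L3_tables`.
-/

set_option autoImplicit false

namespace Crest.Agent.Helper78.S0453

open Finset

universe u

lemma Tab_eq_h56 {C : Type*} [Fintype C] [DecidableEq C] (c : C → ℕ) (r : Fin 3 → ℕ) :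
    Tab c r = Crest.Agent.Helper56.SW.Tab r c := by
  ext x
  rw [mem_Tab]
  unfold Crest.Agent.Helper56.SW.Tab
  rw [Finset.mem_filter]
  constructor
  · rintro ⟨h1, h2⟩
    exact ⟨Finset.mem_univ _, h2, h1⟩
  · rintro ⟨-, h2, h1⟩
    exact ⟨h1, h2⟩

/-- `L3 C` from (L3) for three-row tables in helper56's / helper68's shape. -/
theorem L3_of_tables {C : Type*} [Fintype C] [DecidableEq C]
    (h : ∀ (r : Fin 3 → ℕ) (c : C → ℕ) (g : Fin 3 → Finset C → ℝ),
      (∀ i, ∑ x ∈ Crest.Agent.Helper56.SW.Tab r c, g i (x i) = 0) →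
      ∑ x ∈ Crest.Agent.Helper56.SW.Tab r c, (∑ i, g i (x i)) ^ 2 ≤
        2 * ∑ x ∈ Crest.Agent.Helper56.SW.Tab r c, ∑ i, (g i (x i)) ^ 2) : L3 C := by
  intro c r g hg
  rw [Tab_eq_h56] at hg ⊢
  rw [Finset.sum_comm]
  exact h r c g hg

/-- `L3 C` from (L3) for the colouring model. -/
theorem L3_of_colouring {C : Type u} [Fintype C] [DecidableEq C]
    (h : Crest.Agent.Helper56.SW.L3Colouring.{u}) : L3 C :=
  L3_of_tables fun r c g hg => Crest.Agent.Helper56.SW.L3_tables h r c g hg

end Crest.Agent.Helper78.S0453
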