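import Crest.Agent.Helper78.S0453.Fibre3

/-!
# S0453: the three-body inequality (3B) on the realizations of a degree sequence (helper78)

Inputs: the three-row table inequality `L3 (Fin n)` (WP-D1/D1t) and the inverse half of the fibre
bijection, `FibreSurj t d` (every table with the margins of `G₀` is the table of a member of the
`offU T`-fibre of `G₀`; helper68).  Output: for every triple of vertices,
`P_{ab} + P_{ac} + P_{bc} ≤ 2 I + P_{abc}` as quadratic forms on functions on `realizations d`,
in the forms needed by the assembly (`three_body_t`, `three_body_abc`, `three_body_Qavg`,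
`three_body_Rop` = (3B-Om)).
-/

set_option autoImplicit false

namespace Crest.Agent.Helper78.S0453

open Finset Crest.SwitchChain Crest.Agent.Helper65.Switch

noncomputable section

open Classical

variable {n : ℕ}

/-- **Inverse half of the fibre bijection**: every three-row table with the margins of the table
of `G₀` is the table of a realization with the same part outside `T` as `G₀`. -/
def FibreSurj (t : Fin 3 → Fin n) (d : Fin n → ℕ) : Prop :=
  ∀ G₀ ∈ realizations d, ∀ x : Fin 3 → Finset (Fin n),
    x ∈ Tab (fun w => (univ.filter fun i => w ∈ rowT t G₀ i).card)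
        (fun i => (rowT t G₀ i).card) →
      ∃ G ∈ realizations d, offU (TT t) G = offU (TT t) G₀ ∧ rowT t G = x

variable {t : Fin 3 → Fin n}

/-- the image of a fibre under `rowT t` is the set of tables with the margins of `G₀`. -/
lemma fibre_image (ht : Function.Injective t) {d : Fin n → ℕ} (hsurj : FibreSurj t d)
    {G₀ : Finset (Edge n)} (hG₀ : G₀ ∈ realizations d) :
    (kcls (realizations d) (offU (TT t)) (offU (TT t) G₀)).image (rowT t) =
      Tab (fun w => (univ.filter fun i => w ∈ rowT t G₀ i).card)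
        (fun i => (rowT t G₀ i).card) := by
  ext x
  constructor
  · intro hx
    obtain ⟨G, hG, rfl⟩ := Finset.mem_image.1 hx
    obtain ⟨hG1, hG2⟩ := mem_kcls.1 hG
    have hm := margins_eq ht hG1 hG₀ hG2
    exact mem_Tab.2 ⟨fun w => hm.1 w, fun i => hm.2 i⟩
  · intro hx
    obtain ⟨G, hG, hoff, rfl⟩ := hsurj G₀ hG₀ x hx
    exact Finset.mem_image.2 ⟨G, mem_kcls.2 ⟨hG, hoff⟩, rfl⟩

/-- the primal three-body inequality on one fibre of `offU T`. -/
lemma fibre_primal (hL3 : L3 (Fin n)) (ht : Function.Injective t) {d : Fin n → ℕ}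
    (hsurj : FibreSurj t d) {G₀ : Finset (Edge n)} (hG₀ : G₀ ∈ realizations d)
    (f : Finset (Edge n) → ℝ) :
    ∑ G ∈ kcls (realizations d) (offU (TT t)) (offU (TT t) G₀),
        f G * ∑ i, cavg (kcls (realizations d) (offU (TT t)) (offU (TT t) G₀))
          (offU {t (i + 1), t (i + 2)}) f G ≤
      2 * ∑ G ∈ kcls (realizations d) (offU (TT t)) (offU (TT t) G₀), f G ^ 2 +
        (∑ G ∈ kcls (realizations d) (offU (TT t)) (offU (TT t) G₀), f G) ^ 2 /
          ((kcls (realizations d) (offU (TT t)) (offU (TT t) G₀)).card : ℝ) := by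
  have hoff : ∀ G ∈ kcls (realizations d) (offU (TT t)) (offU (TT t) G₀),
      ∀ G' ∈ kcls (realizations d) (offU (TT t)) (offU (TT t) G₀),
        offU (TT t) G = offU (TT t) G' := by
    intro G hG G' hG'
    rw [(mem_kcls.1 hG).2, (mem_kcls.1 hG').2]
  refine primal_transfer (kcls (realizations d) (offU (TT t)) (offU (TT t) G₀)) (rowT t) ?_
    (fun i => offU {t (i + 1), t (i + 2)}) (fun i x => x i) ?_ ?_ f
  · intro G hG G' hG' hrow
    exact fibre_inj (hoff G (Finset.mem_coe.1 hG) G' (Finset.mem_coe.1 hG')) hrow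
  · intro i G hG G' hG'
    exact off_pair_iff ht (mem_kcls.1 hG).1 (mem_kcls.1 hG').1 (hoff G hG G' hG') i
  · intro f'
    rw [fibre_image ht hsurj hG₀]
    exact hL3.primal _ _ f'

/-- **Three-body inequality**, indexed form: for an injective `t : Fin 3 → Fin n`,
`∑_i P_{t(i+1) t(i+2)} ≤ 2 I + P_T` on functions on `realizations d`. -/
theorem three_body_t (hL3 : L3 (Fin n)) (ht : Function.Injective t) {d : Fin n → ℕ}
    (hsurj : FibreSurj t d) (f : Finset (Edge n) → ℝ) :
    ∑ G ∈ realizations d, f G * ∑ i, cavg (realizations d) (offU {t (i + 1), t (i + 2)}) f G ≤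
      2 * ∑ G ∈ realizations d, f G ^ 2 +
        ∑ G ∈ realizations d, f G * cavg (realizations d) (offU (TT t)) f G := by
  refine primal_global (realizations d) (fun i => offU {t (i + 1), t (i + 2)}) (offU (TT t))
    ?_ ?_ f
  · intro i G _ G' _ h
    exact offU_mono (pair_subset i) h
  · intro G₀ hG₀ f'
    exact fibre_primal hL3 ht hsurj hG₀ f'

/-! ### three named vertices -/

lemma vec3_injective {a b c : Fin n} (hab : a ≠ b) (hac : a ≠ c) (hbc : b ≠ c) :
    Function.Injective (![a, b, c] : Fin 3 → Fin n) := by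
  intro i j h
  fin_cases i <;> fin_cases j <;> simp_all

lemma TT_vec3 (a b c : Fin n) : TT (![a, b, c] : Fin 3 → Fin n) = {a, b, c} := by
  ext v
  rw [mem_TT]
  constructor
  · rintro ⟨i, rfl⟩
    fin_cases i <;> simp
  · intro h
    simp only [mem_insert, mem_singleton] at h
    rcases h with rfl | rfl | rfl
    · exact ⟨0, rfl⟩
    · exact ⟨1, rfl⟩
    · exact ⟨2, rfl⟩

/-- **Three-body inequality** for three distinct vertices `a, b, c`:
`P_{ab} + P_{ac} + P_{bc} ≤ 2 I + P_{abc}` on functions on `realizations d`. -/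
theorem three_body_abc (hL3 : L3 (Fin n)) {d : Fin n → ℕ}
    (hsurj : ∀ t : Fin 3 → Fin n, Function.Injective t → FibreSurj t d)
    {a b c : Fin n} (hab : a ≠ b) (hac : a ≠ c) (hbc : b ≠ c) (f : Finset (Edge n) → ℝ) :
    ∑ G ∈ realizations d, f G * (cavg (realizations d) (offU {a, b}) f G +
        cavg (realizations d) (offU {a, c}) f G + cavg (realizations d) (offU {b, c}) f G) ≤
      2 * ∑ G ∈ realizations d, f G ^ 2 +
        ∑ G ∈ realizations d, f G * cavg (realizations d) (offU {a, b, c}) f G := by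
  have ht := vec3_injective hab hac hbc
  have h := three_body_t hL3 ht (hsurj _ ht) f
  rw [TT_vec3] at h
  have e : ∀ G, ∑ i : Fin 3, cavg (realizations d)
        (offU {(![a, b, c] : Fin 3 → Fin n) (i + 1), (![a, b, c] : Fin 3 → Fin n) (i + 2)}) f G =
      cavg (realizations d) (offU {a, b}) f G + cavg (realizations d) (offU {a, c}) f G +
        cavg (realizations d) (offU {b, c}) f G := by
    intro G
    rw [Fin.sum_univ_three]
    have e0 : ({(![a, b, c] : Fin 3 → Fin n) (0 + 1), (![a, b, c] : Fin 3 → Fin n) (0 + 2)} :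
        Finset (Fin n)) = {b, c} := rfl
    have e1 : ({(![a, b, c] : Fin 3 → Fin n) (1 + 1), (![a, b, c] : Fin 3 → Fin n) (1 + 2)} :
        Finset (Fin n)) = {a, c} := Finset.pair_comm c a
    have e2 : ({(![a, b, c] : Fin 3 → Fin n) (2 + 1), (![a, b, c] : Fin 3 → Fin n) (2 + 2)} :
        Finset (Fin n)) = {a, b} := rfl
    rw [e0, e1, e2]
    ring
  simp only [e] at h
  exact h

/-! ### in terms of helper65's `cls`, `Qavg` -/

lemma kcls_eq_cls (d : Fin n → ℕ) (U : Finset (Fin n)) (G : Finset (Edge n)) :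
    kcls (realizations d) (offU U) (offU U G) = cls d U G := by
  ext H
  rw [mem_kcls, mem_cls]

lemma cavg_eq_Qavg (d : Fin n → ℕ) (U : Finset (Fin n)) (f : Finset (Edge n) → ℝ)
    (G : Finset (Edge n)) : cavg (realizations d) (offU U) f G = Qavg d U f G := by
  rw [Qavg_def, ← kcls_eq_cls]
  rfl

/-- **Three-body inequality** on helper65's `Qavg`. -/
theorem three_body_Qavg (hL3 : L3 (Fin n)) {d : Fin n → ℕ}
    (hsurj : ∀ t : Fin 3 → Fin n, Function.Injective t → FibreSurj t d)
    {a b c : Fin n} (hab : a ≠ b) (hac : a ≠ c) (hbc : b ≠ c) (f : Finset (Edge n) → ℝ) :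
    ∑ G ∈ realizations d, f G * (Qavg d {a, b} f G + Qavg d {a, c} f G + Qavg d {b, c} f G) ≤
      2 * ∑ G ∈ realizations d, f G ^ 2 + ∑ G ∈ realizations d, f G * Qavg d {a, b, c} f G := by
  have h := three_body_abc hL3 hsurj hab hac hbc f
  simp only [cavg_eq_Qavg] at h
  exact h

end

end Crest.Agent.Helper78.S0453
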