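import Crest.Agent.Helper78.S0453.ThreeBody
import Crest.Agent.Helper26.SW.Pairs

/-!
# S0453: (3B) in the shapes consumed by the assembly (helper78)

* `three_body_h3`  : exactly the hypothesis `h3` of `Crest.Agent.Helper26.SW.gap_pairs`
  (`κ = κT = offU`, helper26's `cavg`);
* `three_body_Rop` : (3B-Om) on helper65's `Rop`:
  `∑_G f G * Rop d T f G ≤ ∑_{U ∈ T.powersetCard 2} ∑_G f G * Rop d U f G` for `T.card = 3`;
* `offU_key_le`    : the hypothesis `hle` of `gap_pairs` (`~_U` refines `~_T` for `U ⊆ T`).

Both carry the hypotheses `L3 (Fin n)` (three-row tables) and `FibreSurj t d` (inverse half of the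
fibre bijection).
-/

set_option autoImplicit false

namespace Crest.Agent.Helper78.S0453

open Finset Crest.SwitchChain Crest.Agent.Helper65.Switch

variable {n : ℕ}

/-- my class average is helper26's. -/
lemma cavg_eq_h26 {α β : Type*} [DecidableEq β] (S : Finset α) (κ : α → β) (f : α → ℝ) (x : α) :
    cavg S κ f x = Crest.Agent.Helper26.SW.cavg S κ f x := rfl

/-- (3B) in the shape of the hypothesis `h3` of `Crest.Agent.Helper26.SW.gap_pairs`
(with `Om = realizations d`, `κ = κT = offU`). -/
theorem three_body_h3 (hL3 : L3 (Fin n)) {d : Fin n → ℕ}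
    (hsurj : ∀ t : Fin 3 → Fin n, Function.Injective t → FibreSurj t d) :
    ∀ (a b c : Fin n), a ≠ b → a ≠ c → b ≠ c → ∀ f : Finset (Edge n) → ℝ,
      ∑ x ∈ realizations d, f x *
          (Crest.Agent.Helper26.SW.cavg (realizations d) (offU {a, b}) f x +
            Crest.Agent.Helper26.SW.cavg (realizations d) (offU {a, c}) f x +
            Crest.Agent.Helper26.SW.cavg (realizations d) (offU {b, c}) f x)
        ≤ 2 * ∑ x ∈ realizations d, f x ^ 2 +
          ∑ x ∈ realizations d, f x *
            Crest.Agent.Helper26.SW.cavg (realizations d) (offU {a, b, c}) f x :=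
  fun _ _ _ hab hac hbc f => three_body_abc hL3 hsurj hab hac hbc f

/-- the hypothesis `hle` of `Crest.Agent.Helper26.SW.gap_pairs` for `κ = κT = offU`. -/
theorem offU_key_le (d : Fin n → ℕ) :
    ∀ (U T : Finset (Fin n)), U.card = 2 → T.card = 3 → U ⊆ T →
      ∀ x ∈ realizations d, ∀ y ∈ realizations d, offU U x = offU U y → offU T x = offU T y :=
  fun _ _ _ _ hUT _ _ _ _ h => offU_mono hUT h

/-- **(3B-Om)**: for a triple `T` of vertices,
`⟨f, R_T f⟩ ≤ ∑_{U ⊆ T, |U| = 2} ⟨f, R_U f⟩` on `realizations d`. -/
theorem three_body_Rop (hL3 : L3 (Fin n)) {d : Fin n → ℕ}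
    (hsurj : ∀ t : Fin 3 → Fin n, Function.Injective t → FibreSurj t d)
    (T : Finset (Fin n)) (hT : T.card = 3) (f : Finset (Edge n) → ℝ) :
    ∑ G ∈ realizations d, f G * Rop d T f G ≤
      ∑ U ∈ T.powersetCard 2, ∑ G ∈ realizations d, f G * Rop d U f G := by
  obtain ⟨a, b, c, hab, hac, hbc, rfl⟩ := Finset.card_eq_three.1 hT
  have h := three_body_Qavg hL3 hsurj hab hac hbc f
  rw [Crest.Agent.Helper26.SW.powersetCard_two_triple a b c hab hac hbc]
  have h1 : ({a, b} : Finset (Fin n)) ∉ ({{a, c}, {b, c}} : Finset (Finset (Fin n))) := by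
    simp only [mem_insert, mem_singleton, not_or]
    constructor
    · intro h
      have hb : b ∈ ({a, c} : Finset (Fin n)) := by rw [← h]; simp
      simp only [mem_insert, mem_singleton] at hb
      rcases hb with hb | hb
      · exact hab hb.symm
      · exact hbc hb
    · intro h
      have ha : a ∈ ({b, c} : Finset (Fin n)) := by rw [← h]; simp
      simp only [mem_insert, mem_singleton] at ha
      rcases ha with ha | ha
      · exact hab ha
      · exact hac ha
  have h2 : ({a, c} : Finset (Fin n)) ∉ ({{b, c}} : Finset (Finset (Fin n))) := by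
    simp only [mem_singleton]
    intro h
    have ha : a ∈ ({b, c} : Finset (Fin n)) := by rw [← h]; simp
    simp only [mem_insert, mem_singleton] at ha
    rcases ha with ha | ha
    · exact hab ha
    · exact hac ha
  rw [Finset.sum_insert h1, Finset.sum_insert h2, Finset.sum_singleton]
  simp only [Rop_def, mul_sub, Finset.sum_sub_distrib]
  simp only [mul_add, Finset.sum_add_distrib] at h
  have hsq : ∑ G ∈ realizations d, f G * f G = ∑ G ∈ realizations d, f G ^ 2 :=
    Finset.sum_congr rfl fun G _ => (sq (f G)).symm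
  linarith

end Crest.Agent.Helper78.S0453
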